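import Vale.Agent.P207.N4.Dim
import Vale.Agent.P207.N4.Spec

/-!
# P207, N3, P12: the interface of the smooth alternative

In the smooth case all transition maps between the charts of the boundary are smooth, also between
charts of different leaves, and the function `D` is smooth off the diagonal, with nondegenerate
mixed second derivative.
-/

open Set Filter Topology Metric MeasureTheory
open scoped ContDiff

noncomputable section

namespace Vale.Agent.P207.N4.H442

open Vale.Agent.P207.N3

variable [Dim]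

variable {Γ X B : Type} [Group Γ] [MetricSpace X] [ProperSpace X] [MulAction Γ X]
  [IsIsometricSMul Γ X] [TopologicalSpace B] [CompactSpace B] [T2Space B] [MulAction Γ B]
  [ContinuousConstSMul Γ B]

/-- the domain of `D` in the charts of `x` and `y` -/
def OD (L : Leaf Γ X B) (x y : X) : Set (E2 × E2) :=
  {p | p.1 ∈ ball (0 : E2) 3 ∧ p.2 ∈ ball (0 : E2) 3 ∧ L.e x p.1 ≠ L.e y p.2}

/-- **The smooth alternative.** -/
structure Smooth (L : Leaf Γ X B) (D : B → B → ℝ) : Prop where
  tau_smooth : ∀ x y, ContDiffOn ℝ ∞ (L.τ x y) (L.dm x y)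
  tau_cont : ContinuousOn (fun p : (X × X) × E2 => fderiv ℝ (L.τ p.1.1 p.1.2) p.2)
    {p | p.2 ∈ L.dm p.1.1 p.1.2}
  D_smooth : ∀ x y, ContDiffOn ℝ ∞ (fun p : E2 × E2 => D (L.e x p.1) (L.e y p.2)) (OD L x y)
  nondeg : ∀ x y, ∀ p ∈ OD L x y, Function.Injective
    (fderiv ℝ (fun b => fderiv ℝ (fun a => D (L.e x a) (L.e y b)) p.1) p.2)

end Vale.Agent.P207.N4.H442
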